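import Vale.Agent.Lib.P067.Pseudo

/-!
P067: closed strongly connected pseudomanifolds are never large coboundary expanders.
If every `e`-face of a pure `(e+1)`-dimensional complex lies in exactly two `(e+1)`-faces and
the complex is strongly connected, then being an `ε`-coboundary expander bounds the number of
vertices in terms of `e` and `ε` only (the expansion fails for `e`-cochains).
-/

namespace Vale.Agent.Results.P067.NoPseudomanifold

open Vale.Agent.Lib.P067

theorem result : ∀ (e : ℕ) (ε : ℝ), 0 < ε → ∀ (V : Type) [DecidableEq V] (X : Cplx V),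
    X.Pure (e + 1) → (∀ s ∈ X.face e, X.updeg (e + 1) s = 2) → X.StrongConn (e + 1) →
    X.IsCobExp (e + 1) ε →
    (X.face 0).card ≤ (e + 2) * (2 * e + 5) ^ ⌊((e : ℝ) + 2) / ε⌋₊ := by
  intro e ε hε V _ X hp h2 hsc hexp
  have h1 := X.vertex_card_le hp
  have h3 := X.pseudo_face_bound hε h2 hsc hexp
  calc (X.face 0).card ≤ (e + 1 + 1) * (X.face (e + 1)).card := h1
    _ ≤ (e + 2) * (2 * e + 5) ^ ⌊((e : ℝ) + 2) / ε⌋₊ := Nat.mul_le_mul le_rfl h3

end Vale.Agent.Results.P067.NoPseudomanifold
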