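import Vale.Agent.Lib.P067.BettiDim
import Vale.Agent.Lib.P067.Skeleton

/-!
P067: three necessary conditions on bounded-degree coboundary expanders over the field with two
elements, in one statement.

First part: closed strongly connected pseudomanifolds that are coboundary expanders have a
bounded number of vertices.  Second part: the existence statement of Q1 is monotone in the
dimension.  Third part: the number of vertices of a bounded-degree coboundary expander is at
most an explicit affine function of its top Betti number.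
-/

namespace Vale.Agent.Results.P067.Omnibus

open Vale.Agent.Lib.P067

theorem result :
    (∀ (e : ℕ) (ε : ℝ), 0 < ε → ∀ (V : Type) [DecidableEq V] (X : Cplx V),
      X.Pure (e + 1) → (∀ s ∈ X.face e, X.updeg (e + 1) s = 2) → X.StrongConn (e + 1) →
      X.IsCobExp (e + 1) ε →
      (X.face 0).card ≤ (e + 2) * (2 * e + 5) ^ ⌊((e : ℝ) + 2) / ε⌋₊) ∧
    (∀ d k : ℕ, 1 ≤ k → k ≤ d → BddDegCobExpFamily d → BddDegCobExpFamily k) ∧
    (∀ (d D : ℕ) (ε : ℝ), 1 ≤ d → 0 < ε →
      ∀ (V : Type) [DecidableEq V] (X : Cplx V),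
      X.Pure d → X.DegLE d D → X.IsCobExp d ε →
      ((X.face 0).card : ℝ) ≤
        1 + ((d : ℝ) + 1) ^ 2 * D *
          ((1 + ((d : ℝ) + 1) * D / ε) ^ (d - 1) * (1 + ((X.topBetti d : ℝ) + 1) / ε))) := by
  refine ⟨?_, ?_, ?_⟩
  · intro e ε hε V _ X hp h2 hsc hexp
    have h1 := X.vertex_card_le hp
    have h3 := X.pseudo_face_bound hε h2 hsc hexp
    calc (X.face 0).card ≤ (e + 1 + 1) * (X.face (e + 1)).card := h1
      _ ≤ (e + 2) * (2 * e + 5) ^ ⌊((e : ℝ) + 2) / ε⌋₊ := Nat.mul_le_mul le_rfl h3
  · intro d k hk hkd h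
    exact bddDegCobExpFamily_mono hk hkd h
  · intro d D ε hd hε V _ X hp hD hexp
    exact X.vertex_card_le_topBetti hε hd hp hD hexp

end Vale.Agent.Results.P067.Omnibus
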