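import Vale.Agent.Lib.P067.Skeleton

/-!
P067: the existence statement of Q1 is monotone in the dimension.
If bounded-degree coboundary expanders as in Q1 exist in dimension `d`, then they exist in
every dimension `1 ≤ k ≤ d` (pass to the `k`-skeleton; the weights change by bounded factors).
-/

namespace Vale.Agent.Results.P067.SkeletonMono

open Vale.Agent.Lib.P067

theorem result : ∀ d k : ℕ, 1 ≤ k → k ≤ d → BddDegCobExpFamily d → BddDegCobExpFamily k :=
  fun _ _ hk hkd h => bddDegCobExpFamily_mono hk hkd h

end Vale.Agent.Results.P067.SkeletonMono
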