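import Vale.Agent.Lib.P067.BettiDim

/-!
P067: bounded-degree coboundary expanders have top Betti number at least linear in the number
of vertices.  For a pure `d`-dimensional complex `X` (`d ≥ 1`) of degree at most `D` which is an
`ε`-coboundary expander over the field with two elements, the number of vertices is at most an
explicit affine function of `dim H^d(X; F_2)`.  (Proof: a maximal set `T` of `d`-faces that is
independent modulo coboundaries yields, dimension by dimension from the top, a contracting
homotopy whose values have small norm; at the bottom this is impossible if there are too many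
vertices.)
-/

namespace Vale.Agent.Results.P067.TopBetti

open Vale.Agent.Lib.P067

theorem result : ∀ (d D : ℕ) (ε : ℝ), 1 ≤ d → 0 < ε →
    ∀ (V : Type) [DecidableEq V] (X : Cplx V),
    X.Pure d → X.DegLE d D → X.IsCobExp d ε →
    ((X.face 0).card : ℝ) ≤
      1 + ((d : ℝ) + 1) ^ 2 * D *
        ((1 + ((d : ℝ) + 1) * D / ε) ^ (d - 1) * (1 + ((X.topBetti d : ℝ) + 1) / ε)) := by
  intro d D ε hd hε V _ X hp hD hexp
  exact X.vertex_card_le_topBetti hε hd hp hD hexp

end Vale.Agent.Results.P067.TopBetti
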